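import Vale.Agent.Lib.P063.Defs
import Vale.Agent.Lib.P064_helper23.Spread

/-! # P063 units U1-U8.  Tools: `Vale.Agent.Lib.P064S.{bw, ind, sum_bw, sum_bw_union, sum_bw_le_of_le,
bw_nonneg, sum_bw_mono}` in `P064_helper23/Spread.lean`. -/

namespace P063
open Finset Vale.Agent.Lib.P064S

variable {E : Type*} [Fintype E] [DecidableEq E]

/-- U1. -/
theorem mu_eq (p : ℝ) (P : Finset (Finset E)) :
    mu p P = ∑ W : Finset E, bw p W * ind (W ∈ P) := by
  unfold mu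
  have h : ∀ W : Finset E, bw p W * ind (W ∈ P) = if W ∈ P then bw p W else 0 := by
    intro W
    by_cases hW : W ∈ P
    · rw [ind_of hW, if_pos hW, mul_one]
    · rw [ind_not hW, if_neg hW, mul_zero]
  simp only [h]
  rw [Finset.sum_ite_mem, Finset.univ_inter]
  rfl

/-- U2a. -/
theorem mu_nonneg {p : ℝ} (h0 : 0 ≤ p) (h1 : p ≤ 1) (P : Finset (Finset E)) : 0 ≤ mu p P := by
  rw [mu_eq]
  exact Finset.sum_nonneg (fun W _ => mul_nonneg (bw_nonneg h0 h1 W) (ind_nonneg _))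

/-- U2b (`mu_eq`, `sum_bw`, `ind_le_one`). -/
theorem mu_le_one {p : ℝ} (h0 : 0 ≤ p) (h1 : p ≤ 1) (P : Finset (Finset E)) : mu p P ≤ 1 := by
  rw [mu_eq]
  calc ∑ W : Finset E, bw p W * ind (W ∈ P) ≤ ∑ W : Finset E, bw p W * 1 :=
        sum_bw_mono h0 h1 (fun W => ind_le_one _)
    _ = 1 := sum_bw_const p 1

/-- U3 (`sum_bw_le_of_le`). -/
theorem mu_mono {P : Finset (Finset E)} (hP : Increasing P) {p q : ℝ} (h0 : 0 ≤ p) (hpq : p ≤ q)
    (h1 : q ≤ 1) : mu p P ≤ mu q P := by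
  rw [mu_eq, mu_eq]
  apply sum_bw_le_of_le h0 hpq h1
  intro W W' hWW'
  by_cases hW : W ∈ P
  · rw [ind_of hW, ind_of (hP W hW W' hWW')]
  · rw [ind_not hW]
    exact ind_nonneg _

/-- U4.  Union of two independent random sets (`sum_bw_union` with `f W = 1 - ind (W ∈ P)`), and
`1 - ind (W1 ∪ W2 ∈ P) ≤ (1 - ind (W1 ∈ P)) * (1 - ind (W2 ∈ P))` for increasing `P`. -/
theorem union_step {P : Finset (Finset E)} (hP : Increasing P) {r q : ℝ} (hr0 : 0 ≤ r)
    (hr1 : r ≤ 1) (hq0 : 0 ≤ q) (hq1 : q ≤ 1) :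
    1 - mu (1 - (1 - r) * (1 - q)) P ≤ (1 - mu r P) * (1 - mu q P) := by
  have one_sub : ∀ p : ℝ, 1 - mu p P = ∑ W : Finset E, bw p W * (1 - ind (W ∈ P)) := by
    intro p
    rw [mu_eq]
    simp only [mul_sub, mul_one, Finset.sum_sub_distrib, sum_bw]
  have hpt : ∀ W1 W2 : Finset E,
      1 - ind (W1 ∪ W2 ∈ P) ≤ (1 - ind (W1 ∈ P)) * (1 - ind (W2 ∈ P)) := by
    intro W1 W2
    by_cases h1 : W1 ∈ P
    · rw [ind_of h1, ind_of (hP W1 h1 _ Finset.subset_union_left)]; simp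
    · by_cases h2 : W2 ∈ P
      · rw [ind_of h2, ind_of (hP W2 h2 _ Finset.subset_union_right)]; simp
      · rw [ind_not h1, ind_not h2]
        have := ind_nonneg (W1 ∪ W2 ∈ P)
        linarith
  rw [one_sub, one_sub r, one_sub q,
    ← sum_bw_union r q (1 - (1 - r) * (1 - q)) (by ring) (fun W => 1 - ind (W ∈ P)),
    Finset.sum_mul]
  refine Finset.sum_le_sum (fun W1 _ => ?_)
  rw [mul_assoc]
  refine mul_le_mul_of_nonneg_left ?_ (bw_nonneg hr0 hr1 W1)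
  rw [Finset.mul_sum]
  refine Finset.sum_le_sum (fun W2 _ => ?_)
  calc bw q W2 * (1 - ind (W1 ∪ W2 ∈ P))
      ≤ bw q W2 * ((1 - ind (W1 ∈ P)) * (1 - ind (W2 ∈ P))) :=
        mul_le_mul_of_nonneg_left (hpt W1 W2) (bw_nonneg hq0 hq1 W2)
    _ = (1 - ind (W1 ∈ P)) * (bw q W2 * (1 - ind (W2 ∈ P))) := by ring

/-- U5.  Induction on `k` from `union_step` (`k = 0`: `mu 0 P ≥ 0`). -/
theorem amp {P : Finset (Finset E)} (hP : Increasing P) {p : ℝ} (h0 : 0 ≤ p) (h1 : p ≤ 1) (k : ℕ) :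
    1 - mu (1 - (1 - p) ^ k) P ≤ (1 - mu p P) ^ k := by
  induction k with
  | zero =>
    have := mu_nonneg (le_refl (0 : ℝ)) zero_le_one P
    simp only [pow_zero, sub_self]
    linarith
  | succ k ih =>
    have hq0 : (0 : ℝ) ≤ (1 - p) ^ k := pow_nonneg (by linarith) k
    have hq1 : (1 - p) ^ k ≤ 1 := pow_le_one₀ (by linarith) (by linarith)
    have h := union_step hP (r := 1 - (1 - p) ^ k) (q := p) (by linarith) (by linarith) h0 h1
    have e : 1 - (1 - (1 - (1 - p) ^ k)) * (1 - p) = 1 - (1 - p) ^ (k + 1) := by ring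
    rw [e] at h
    have hnn : 0 ≤ 1 - mu p P := by have := mu_le_one h0 h1 P; linarith
    calc 1 - mu (1 - (1 - p) ^ (k + 1)) P
        ≤ (1 - mu (1 - (1 - p) ^ k) P) * (1 - mu p P) := h
      _ ≤ (1 - mu p P) ^ k * (1 - mu p P) := mul_le_mul_of_nonneg_right ih hnn
      _ = (1 - mu p P) ^ (k + 1) := by ring

/-- U6.  Intersection of two independent random sets.  E.g. from `sum_bw_union` by complements:
`bw p W = bw (1 - p) Wᶜ`, `(W1ᶜ ∪ W2ᶜ)ᶜ = W1 ∩ W2`, and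
`ind (W1 ∩ W2 ∈ P) ≤ ind (W1 ∈ P) * ind (W2 ∈ P)` for increasing `P`. -/
theorem inter_step {P : Finset (Finset E)} (hP : Increasing P) {r q : ℝ} (hr0 : 0 ≤ r)
    (hr1 : r ≤ 1) (hq0 : 0 ≤ q) (hq1 : q ≤ 1) :
    mu (r * q) P ≤ mu r P * mu q P := by
  have hbw : ∀ (p : ℝ) (W : Finset E), bw p W = bw (1 - p) Wᶜ := by
    intro p W
    unfold bw
    rw [Finset.card_compl, Nat.sub_sub_self (Finset.card_le_univ W), sub_sub_cancel, mul_comm]
  have hc : ∀ p : ℝ, mu p P = ∑ V : Finset E, bw (1 - p) V * ind (Vᶜ ∈ P) := by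
    intro p
    rw [mu_eq]
    refine Fintype.sum_bijective compl compl_bijective _ _ (fun W => ?_)
    rw [hbw p W, compl_compl]
  have hpt : ∀ V1 V2 : Finset E,
      ind ((V1 ∪ V2)ᶜ ∈ P) ≤ ind (V1ᶜ ∈ P) * ind (V2ᶜ ∈ P) := by
    intro V1 V2
    by_cases h : (V1 ∪ V2)ᶜ ∈ P
    · have h1 : V1ᶜ ∈ P := hP _ h _ (Finset.compl_subset_compl.2 Finset.subset_union_left)
      have h2 : V2ᶜ ∈ P := hP _ h _ (Finset.compl_subset_compl.2 Finset.subset_union_right)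
      rw [ind_of h, ind_of h1, ind_of h2]; norm_num
    · rw [ind_not h]
      exact mul_nonneg (ind_nonneg _) (ind_nonneg _)
  rw [hc, hc r, hc q,
    ← sum_bw_union (1 - r) (1 - q) (1 - r * q) (by ring) (fun V => ind (Vᶜ ∈ P)),
    Finset.sum_mul]
  refine Finset.sum_le_sum (fun V1 _ => ?_)
  rw [mul_assoc]
  refine mul_le_mul_of_nonneg_left ?_ (bw_nonneg (by linarith) (by linarith) V1)
  rw [Finset.mul_sum]
  refine Finset.sum_le_sum (fun V2 _ => ?_)
  calc bw (1 - q) V2 * ind ((V1 ∪ V2)ᶜ ∈ P)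
      ≤ bw (1 - q) V2 * (ind (V1ᶜ ∈ P) * ind (V2ᶜ ∈ P)) :=
        mul_le_mul_of_nonneg_left (hpt V1 V2) (bw_nonneg (by linarith) (by linarith) V2)
    _ = ind (V1ᶜ ∈ P) * (bw (1 - q) V2 * ind (V2ᶜ ∈ P)) := by ring

/-- U7.  Induction on `k` from `inter_step` (`k = 0`: `mu 1 P ≤ 1`). -/
theorem amp' {P : Finset (Finset E)} (hP : Increasing P) {p : ℝ} (h0 : 0 ≤ p) (h1 : p ≤ 1) (k : ℕ) :
    mu (p ^ k) P ≤ (mu p P) ^ k := by
  induction k with
  | zero =>
    simp only [pow_zero]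
    exact mu_le_one zero_le_one le_rfl P
  | succ k ih =>
    have h := inter_step hP (r := p ^ k) (q := p) (pow_nonneg h0 k) (pow_le_one₀ h0 h1) h0 h1
    calc mu (p ^ (k + 1)) P = mu (p ^ k * p) P := by rw [pow_succ]
      _ ≤ mu (p ^ k) P * mu p P := h
      _ ≤ (mu p P) ^ k * mu p P := mul_le_mul_of_nonneg_right ih (mu_nonneg h0 h1 P)
      _ = (mu p P) ^ (k + 1) := by ring

/-- U8.  A nonempty increasing family contains `univ`; only `S = univ` has nonzero weight at `p = 1`. -/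
theorem mu_one {P : Finset (Finset E)} (hP : Increasing P) (hne : P.Nonempty) : mu 1 P = 1 := by
  obtain ⟨S, hS⟩ := hne
  have huniv : (Finset.univ : Finset E) ∈ P := hP S hS _ (Finset.subset_univ S)
  unfold mu
  rw [Finset.sum_eq_single_of_mem _ huniv]
  · simp
  · intro T _ hT
    have hlt : T.card < Fintype.card E := by
      rw [← Finset.card_univ]
      exact Finset.card_lt_card (Finset.ssubset_univ_iff.2 hT)
    have : Fintype.card E - T.card ≠ 0 := by omega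
    simp [this]

end P063
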