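import Mathlib

/-! # P063 (Friedgut-Kalai threshold width): definitions for families on a finite ground set -/

namespace P063
open Finset

variable {E : Type*} [Fintype E] [DecidableEq E]

/-- `μ_p(P)`: the probability that the `p`-random subset of `E` lies in the family `P`. -/
noncomputable def mu (p : ℝ) (P : Finset (Finset E)) : ℝ :=
  ∑ S ∈ P, p ^ S.card * (1 - p) ^ (Fintype.card E - S.card)

/-- The family is increasing (closed under adding elements). -/
def Increasing (P : Finset (Finset E)) : Prop := ∀ S ∈ P, ∀ T, S ⊆ T → T ∈ P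

/-- `p_a(P) = inf {p ∈ [0,1] : μ_p(P) ≥ a}`. -/
noncomputable def pa (a : ℝ) (P : Finset (Finset E)) : ℝ :=
  sInf {p : ℝ | 0 ≤ p ∧ p ≤ 1 ∧ a ≤ mu p P}

/-- The threshold width `w_ε(P) = p_{1-ε}(P) - p_ε(P)`. -/
noncomputable def width (ε : ℝ) (P : Finset (Finset E)) : ℝ := pa (1 - ε) P - pa ε P

end P063
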