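import Vale.Agent.Lib.P063.Amp

/-! # P063: the threshold width is at most a constant times the distance of the threshold from 0 or 1 -/

namespace P063
open Finset

variable {E : Type*} [Fintype E] [DecidableEq E]

theorem one_mem {P : Finset (Finset E)} (hP : Increasing P) (hne : P.Nonempty) {a : ℝ} (ha : a ≤ 1) :
    (1 : ℝ) ∈ {p : ℝ | 0 ≤ p ∧ p ≤ 1 ∧ a ≤ mu p P} :=
  ⟨zero_le_one, le_refl _, by rw [mu_one hP hne]; exact ha⟩

theorem bdd (a : ℝ) (P : Finset (Finset E)) : BddBelow {p : ℝ | 0 ≤ p ∧ p ≤ 1 ∧ a ≤ mu p P} :=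
  ⟨0, fun _ h => h.1⟩

theorem k_pos {ε : ℝ} (h1 : ε < 1) {k : ℕ} (hk : (1 - ε) ^ k ≤ ε) : 0 < k := by
  rcases Nat.eq_zero_or_pos k with h | h
  · subst h
    simp at hk
    linarith
  · exact h

theorem pa_upper {P : Finset (Finset E)} (hP : Increasing P) (hne : P.Nonempty) {ε : ℝ}
    (h0 : 0 < ε) (h1 : ε < 1) {k : ℕ} (hk : (1 - ε) ^ k ≤ ε) :
    pa (1 - ε) P ≤ k * pa ε P := by
  have hkpos : (0 : ℝ) < k := by exact_mod_cast k_pos h1 hk
  have key : ∀ p ∈ {p : ℝ | 0 ≤ p ∧ p ≤ 1 ∧ ε ≤ mu p P}, pa (1 - ε) P / k ≤ p := by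
    rintro p ⟨hp0, hp1, hmu⟩
    have hq0 : 0 ≤ (1 - p) ^ k := pow_nonneg (by linarith) k
    have hq1 : (1 - p) ^ k ≤ 1 := pow_le_one₀ (by linarith) (by linarith)
    have hamp := amp hP hp0 hp1 k
    have hle : (1 - mu p P) ^ k ≤ (1 - ε) ^ k :=
      pow_le_pow_left₀ (by linarith [mu_le_one hp0 hp1 P]) (by linarith) k
    have hmem : (1 - (1 - p) ^ k) ∈ {p : ℝ | 0 ≤ p ∧ p ≤ 1 ∧ 1 - ε ≤ mu p P} :=
      ⟨by linarith, by linarith, by linarith⟩
    have h2 : pa (1 - ε) P ≤ 1 - (1 - p) ^ k := csInf_le (bdd _ P) hmem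
    have hb := one_add_mul_le_pow (a := -p) (by linarith) k
    have h3 : 1 - (1 - p) ^ k ≤ k * p := by
      have : (1 + -p) = 1 - p := by ring
      rw [this] at hb
      linarith
    rw [div_le_iff₀ hkpos]
    linarith
  have := le_csInf ⟨1, one_mem hP hne h1.le⟩ key
  rw [div_le_iff₀ hkpos] at this
  unfold pa at this ⊢
  linarith

theorem pa_lower {P : Finset (Finset E)} (hP : Increasing P) (hne : P.Nonempty) {ε : ℝ}
    (h0 : 0 < ε) (h1 : ε < 1) {k : ℕ} (hk : (1 - ε) ^ k ≤ ε) :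
    1 - k * (1 - pa (1 - ε) P) ≤ pa ε P := by
  have hkN : 0 < k := k_pos h1 hk
  have hkpos : (0 : ℝ) < k := by exact_mod_cast hkN
  set b := pa (1 - ε) P with hb
  have hb1 : b ≤ 1 := csInf_le (bdd _ P) (one_mem hP hne (by linarith))
  have hb0 : 0 ≤ b := le_csInf ⟨1, one_mem hP hne (by linarith)⟩ (fun _ h => h.1)
  refine le_csInf ⟨1, one_mem hP hne h1.le⟩ ?_
  rintro p' ⟨hp0, hp1, hmu⟩
  -- every `p < b` in `[0,1]` gives `1 - k (1 - p) ≤ p'`
  have key : ∀ p : ℝ, 0 ≤ p → p < b → 1 - k * (1 - p) ≤ p' := by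
    intro p hp0' hpb
    have hp1' : p ≤ 1 := by linarith
    have hnot : mu p P < 1 - ε := by
      by_contra hcon
      rw [not_lt] at hcon
      have : b ≤ p := csInf_le (bdd _ P) ⟨hp0', hp1', hcon⟩
      linarith
    have h2 : mu (p ^ k) P < ε := by
      calc mu (p ^ k) P ≤ (mu p P) ^ k := amp' hP hp0' hp1' k
        _ < (1 - ε) ^ k := pow_lt_pow_left₀ hnot (mu_nonneg hp0' hp1' P) hkN.ne'
        _ ≤ ε := hk
    have h3 : p ^ k < p' := by
      by_contra hcon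
      rw [not_lt] at hcon
      have := mu_mono hP hp0 hcon (pow_le_one₀ hp0' hp1')
      linarith
    have hbern := one_add_mul_le_pow (a := p - 1) (by linarith) k
    have : (1 + (p - 1)) = p := by ring
    rw [this] at hbern
    nlinarith
  rcases eq_or_lt_of_le hb0 with hz | hpos
  · have : (1 : ℝ) ≤ k := by exact_mod_cast hkN
    rw [← hz]
    nlinarith
  · refine le_of_forall_pos_le_add ?_
    intro η hη
    have hδ : 0 < η / k := div_pos hη hkpos
    have h := key (max (b - η / k) 0) (le_max_right _ _) (max_lt (by linarith) hpos)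
    have h4 : b - η / k ≤ max (b - η / k) 0 := le_max_left _ _
    have h5 : (k : ℝ) * (η / k) = η := by field_simp
    nlinarith

theorem width_le {P : Finset (Finset E)} (hP : Increasing P) (hne : P.Nonempty) {ε : ℝ}
    (h0 : 0 < ε) (h1 : ε < 1) {k : ℕ} (hk : (1 - ε) ^ k ≤ ε) :
    width ε P ≤ (k - 1) * pa ε P ∧ width ε P ≤ (k - 1) * (1 - pa (1 - ε) P) := by
  have a := pa_upper hP hne h0 h1 hk
  have b := pa_lower hP hne h0 h1 hk
  unfold width
  constructor <;> linarith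

end P063
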